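import Vale.Agent.P133.R2.H28.Conv
import Vale.Agent.P133.H681.Generic2
import Mathlib.Topology.Algebra.NonUnitalStarAlgebra

/-!
P133 (helper448): elements which are nowhere normal, and hereditary subalgebras generated by one
element, in weakly purely infinite C*-algebras.
-/

open scoped ComplexOrder

namespace Vale.Agent.P133.R2.H448

open Vale.Agent.P133 Vale.Agent.P133.Statement Vale.Agent.P133.H832 Vale.Agent.P133F
  Vale.Agent.P133.H681

universe u

section wielandt

variable {B : Type u} [NonUnitalCStarAlgebra B]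

/-- the powers `X ^ (n + 1)` -/
def pw (X : B) : ℕ → B
  | 0 => X
  | n + 1 => X * pw X n

theorem pw_comm (X : B) : ∀ n, X * pw X n = pw X n * X
  | 0 => rfl
  | n + 1 => by
    show X * (X * pw X n) = X * pw X n * X
    rw [mul_assoc, ← pw_comm X n]

theorem pw_bracket {X : B} {l : ℝ} (h : (star X * X - X * star X) * X = l • X)
    (h' : X * (star X * X - X * star X) = l • X) :
    ∀ n : ℕ, star X * pw X (n + 1) - pw X (n + 1) * star X = (((n : ℝ) + 2) * l) • pw X n
  | 0 => by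
    have e : star X * (X * X) - X * X * star X =
        (star X * X - X * star X) * X + X * (star X * X - X * star X) := by
      noncomm_ring
    show star X * (X * X) - X * X * star X = _
    rw [e, h, h', ← add_smul]
    show (l + l) • X = ((((0 : ℕ) : ℝ) + 2) * l) • X
    congr 1; push_cast; ring
  | n + 1 => by
    have e : star X * (X * pw X (n + 1)) - X * pw X (n + 1) * star X =
        (star X * X - X * star X) * X * pw X n +
          X * (star X * pw X (n + 1) - pw X (n + 1) * star X) := by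
      show star X * (X * (X * pw X n)) - X * (X * pw X n) * star X = 
        (star X * X - X * star X) * X * pw X n +
          X * (star X * (X * pw X n) - X * pw X n * star X)
      noncomm_ring
    show star X * (X * pw X (n + 1)) - X * pw X (n + 1) * star X = _
    rw [e, h, pw_bracket h h' n, mul_smul_comm, smul_mul_assoc]
    show l • pw X (n + 1) + _ • pw X (n + 1) = _
    rw [← add_smul]; congr 1; push_cast; ring

theorem wielandt {X : B} {l : ℝ} (h : (star X * X - X * star X) * X = l • X)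
    (h' : X * (star X * X - X * star X) = l • X) : l = 0 ∨ X = 0 := by
  by_contra hcon
  push Not at hcon
  obtain ⟨hl, hX⟩ := hcon
  have hb := pw_bracket h h'
  have hz : ∃ n, pw X n = 0 := by
    obtain ⟨n, hn⟩ := exists_nat_gt (2 * ‖X‖ ^ 2 / |l|)
    refine ⟨n, ?_⟩
    have hl0 : 0 < |l| := abs_pos.2 hl
    rw [div_lt_iff₀ hl0] at hn
    by_contra hp
    have hp0 : 0 < ‖pw X n‖ := norm_pos_iff.2 hp
    have h1 : ‖star X * pw X (n + 1)‖ ≤ ‖X‖ ^ 2 * ‖pw X n‖ := by
      show ‖star X * (X * pw X n)‖ ≤ _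
      calc _ ≤ ‖star X‖ * (‖X‖ * ‖pw X n‖) :=
            (norm_mul_le _ _).trans (by gcongr; exact norm_mul_le _ _)
        _ = _ := by rw [norm_star]; ring
    have h2 : ‖pw X (n + 1) * star X‖ ≤ ‖X‖ ^ 2 * ‖pw X n‖ := by
      show ‖X * pw X n * star X‖ ≤ _
      calc _ ≤ (‖X‖ * ‖pw X n‖) * ‖star X‖ :=
            (norm_mul_le _ _).trans (by gcongr; exact norm_mul_le _ _)
        _ = _ := by rw [norm_star]; ring
    have h3 : ‖(((n : ℝ) + 2) * l) • pw X n‖ ≤ 2 * ‖X‖ ^ 2 * ‖pw X n‖ := by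
      rw [← hb n]
      calc _ ≤ ‖star X * pw X (n + 1)‖ + ‖pw X (n + 1) * star X‖ := norm_sub_le _ _
        _ ≤ _ := by linarith
    rw [norm_smul, Real.norm_eq_abs, abs_mul, abs_of_nonneg (by positivity : (0 : ℝ) ≤ n + 2)] at h3
    have h4 : ((n : ℝ) + 2) * |l| ≤ 2 * ‖X‖ ^ 2 := le_of_mul_le_mul_right h3 hp0
    nlinarith
  obtain ⟨n, hn⟩ := hz
  induction n with
  | zero => exact hX hn
  | succ n ih =>
    refine ih ?_
    have h1 := hb n
    rw [hn, mul_zero, zero_mul, sub_zero] at h1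
    rcases smul_eq_zero.1 h1.symm with h2 | h2
    · exfalso
      rcases mul_eq_zero.1 h2 with h3 | h3
      · have : (0 : ℝ) ≤ n := Nat.cast_nonneg n
        linarith
      · exact hl h3
    · exact h2

/-- if `[X*, X]` acts as a scalar on `a B a ∋ X`, then it is zero -/
theorem scalar_zero {a X : B} (ha : star a = a)
    (hX : X ∈ closure (Set.range fun w => a * w * a)) {l : ℝ}
    (h : (star X * X - X * star X) * a = l • a) : star X * X - X * star X = 0 := by
  set D : B := star X * X - X * star X with hD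
  have hDs : star D = D := by rw [hD]; simp
  have h1 : ∀ y ∈ closure (Set.range fun w => a * w * a), D * y = l • y := by
    intro y hy
    have hc : IsClosed {y : B | D * y = l • y} :=
      isClosed_eq (by fun_prop) (by fun_prop)
    refine hc.closure_subset_iff.2 ?_ hy
    rintro _ ⟨w, rfl⟩
    show D * (a * w * a) = l • (a * w * a)
    rw [← mul_assoc, ← mul_assoc, h, smul_mul_assoc, smul_mul_assoc]
  have hXs : star X ∈ closure (Set.range fun w => a * w * a) := by
    refine map_mem_closure (f := fun x : B => star x) continuous_star hX ?_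
    rintro _ ⟨v, rfl⟩
    exact ⟨star v, by simp only [star_mul, ha, mul_assoc]⟩
  have h2 := h1 X hX
  have h3 := h1 _ hXs
  have h4 : X * D = l • X := by
    have := congrArg star h3
    rwa [star_mul, star_star, hDs, star_smul, star_trivial, star_star] at this
  rcases wielandt (X := X) (l := l) h2 h4 with h5 | h5
  · subst h5
    rw [zero_smul] at h2 h3
    have h6 : D * (star X * X - X * star X) = 0 := by
      rw [mul_sub, ← mul_assoc, ← mul_assoc, h2, h3, zero_mul, zero_mul, sub_zero]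
    have h7 : star D * D = 0 := by rw [hDs]; exact h6
    exact CStarRing.star_mul_self_eq_zero_iff _ |>.1 h7
  · rw [hD, h5]; simp

/-- if `M₁ M₂*` is normal and `Mᵢ* Mⱼ` is close to `δᵢⱼ C`, then `C` is small -/
theorem normal_small {M₁ M₂ C : B} {ε : ℝ} (hε : 0 ≤ ε)
    (h1 : ‖star M₁ * M₁ - C‖ ≤ ε) (h2 : ‖star M₂ * M₂ - C‖ ≤ ε) (h3 : ‖star M₁ * M₂‖ ≤ ε)
    (hn : star (M₁ * star M₂) * (M₁ * star M₂) = (M₁ * star M₂) * star (M₁ * star M₂)) :
    ‖C * C * C‖ ≤ ε ^ 2 * (‖C‖ + ε) + 3 * ε * (‖C‖ + ε) ^ 2 := by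
  set A₁ : B := star M₁ * M₁ with hA1
  set A₂ : B := star M₂ * M₂ with hA2
  have e1 : A₂ * A₁ * A₂ = (star M₂ * M₁) * A₂ * (star M₁ * M₂) := by
    have := congrArg (fun z => star M₂ * z * M₂) hn
    simp only [star_mul, star_star] at this
    rw [hA1, hA2]
    simpa only [mul_assoc] using this
  have h3' : ‖star M₂ * M₁‖ ≤ ε := by
    have : star M₂ * M₁ = star (star M₁ * M₂) := by simp
    rw [this, norm_star]; exact h3
  have nA1 : ‖A₁‖ ≤ ‖C‖ + ε := by
    calc ‖A₁‖ = ‖C + (A₁ - C)‖ := by rw [add_sub_cancel]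
      _ ≤ ‖C‖ + ‖A₁ - C‖ := norm_add_le _ _
      _ ≤ _ := by linarith
  have nA2 : ‖A₂‖ ≤ ‖C‖ + ε := by
    calc ‖A₂‖ = ‖C + (A₂ - C)‖ := by rw [add_sub_cancel]
      _ ≤ ‖C‖ + ‖A₂ - C‖ := norm_add_le _ _
      _ ≤ _ := by linarith
  have nC : ‖C‖ ≤ ‖C‖ + ε := by linarith
  have n1 : ‖A₂ * A₁ * A₂‖ ≤ ε ^ 2 * (‖C‖ + ε) := by
    rw [e1]
    calc _ ≤ (‖star M₂ * M₁‖ * ‖A₂‖) * ‖star M₁ * M₂‖ :=
          (norm_mul_le _ _).trans (by gcongr; exact norm_mul_le _ _)
      _ ≤ (ε * (‖C‖ + ε)) * ε := by gcongr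
      _ = _ := by ring
  have e2 : C * C * C = A₂ * A₁ * A₂ - ((A₂ - C) * A₁ * A₂ + C * (A₁ - C) * A₂ +
      C * C * (A₂ - C)) := by noncomm_ring
  have n2 : ‖(A₂ - C) * A₁ * A₂‖ ≤ ε * (‖C‖ + ε) * (‖C‖ + ε) :=
    (norm_mul_le _ _).trans (by gcongr; exact (norm_mul_le _ _).trans (by gcongr))
  have n3 : ‖C * (A₁ - C) * A₂‖ ≤ (‖C‖ + ε) * ε * (‖C‖ + ε) :=
    (norm_mul_le _ _).trans (by gcongr; exact (norm_mul_le _ _).trans (by gcongr))
  have n4 : ‖C * C * (A₂ - C)‖ ≤ (‖C‖ + ε) * (‖C‖ + ε) * ε :=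
    (norm_mul_le _ _).trans (by gcongr; exact (norm_mul_le _ _).trans (by gcongr))
  calc ‖C * C * C‖ ≤ ‖A₂ * A₁ * A₂‖ + ‖(A₂ - C) * A₁ * A₂ + C * (A₁ - C) * A₂ +
      C * C * (A₂ - C)‖ := by rw [e2]; exact norm_sub_le _ _
    _ ≤ ε ^ 2 * (‖C‖ + ε) + (‖(A₂ - C) * A₁ * A₂‖ + ‖C * (A₁ - C) * A₂‖ +
      ‖C * C * (A₂ - C)‖) := by
        gcongr
        exact (norm_add_le _ _).trans (by gcongr; exact norm_add_le _ _)
    _ ≤ ε ^ 2 * (‖C‖ + ε) + (ε * (‖C‖ + ε) * (‖C‖ + ε) + (‖C‖ + ε) * ε * (‖C‖ + ε) +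
      (‖C‖ + ε) * (‖C‖ + ε) * ε) := by gcongr
    _ = _ := by ring

theorem cube_norm {C : B} (hC : star C = C) : ‖C‖ ^ 3 ≤ ‖C * C * C‖ := by
  rcases eq_or_ne C 0 with h | h
  · subst h; simp
  have h0 : 0 < ‖C‖ := norm_pos_iff.2 h
  have h1 : ‖C * C‖ = ‖C‖ * ‖C‖ := by
    have := CStarRing.norm_star_mul_self (x := C)
    rwa [hC] at this
  have h2 : ‖(C * C) * (C * C)‖ = ‖C * C‖ * ‖C * C‖ := by
    have := CStarRing.norm_star_mul_self (x := C * C)
    rwa [star_mul, hC] at this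
  have h3 : ‖(C * C) * (C * C)‖ ≤ ‖C * C * C‖ * ‖C‖ := by
    rw [← mul_assoc]; exact norm_mul_le _ _
  rw [h2, h1] at h3
  have h4 : ‖C‖ ^ 3 * ‖C‖ ≤ ‖C * C * C‖ * ‖C‖ := by
    calc _ = ‖C‖ * ‖C‖ * (‖C‖ * ‖C‖) := by ring
      _ ≤ _ := h3
  exact le_of_mul_le_mul_right h4 h0

end wielandt

section

variable {A : Type u} [NonUnitalCStarAlgebra A] [PartialOrder A] [StarOrderedRing A]

/-- `[x*, x]` is nowhere scalar where it is not zero -/
theorem bracket_not_scalar {a x : A} (ha : 0 ≤ a) (hx : x ∈ R2.H28.Her a)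
    {P : Submodule ℂ A} (hP : IsClosedIdeal P) {l : ℝ}
    (h : (star x * x - x * star x) * a - l • a ∈ P) : star x * x - x * star x ∈ P := by
  obtain ⟨B, i1, i2, i3, φ, hφ, hk⟩ := hP.quot
  have hφa : star (φ a) = φ a := by
    rw [← map_star, (IsSelfAdjoint.of_nonneg ha).star_eq]
  have hX : φ x ∈ closure (Set.range fun w => φ a * w * φ a) := by
    refine map_mem_closure (f := fun y : A => φ y) (map_continuous φ) hx ?_
    rintro _ ⟨v, rfl⟩
    exact ⟨φ v, by simp only [map_mul]⟩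
  have h1 := (hk _).2 h
  have h2 : φ (l • a) = l • φ a := by
    rw [← Complex.coe_smul, map_smul, Complex.coe_smul]
  rw [map_sub, sub_eq_zero, h2, map_mul, map_sub, map_mul, map_mul, map_star] at h1
  have h3 := scalar_zero hφa hX h1
  rw [← hk, map_sub, map_mul, map_mul, map_star]
  exact h3

theorem bracket_her {a x : A} (ha : 0 ≤ a) (hx : x ∈ R2.H28.Her a) :
    star x * x - x * star x ∈ R2.H28.Her a := by
  have h1 : x ∈ R2.H474.her a := hx
  have h2 : star x ∈ R2.H474.her a :=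
    R2.H474.her_star (IsSelfAdjoint.of_nonneg ha).star_eq h1
  exact (R2.H474.her a).sub_mem (R2.H474.her_mul h2 h1) (R2.H474.her_mul h1 h2)

/-- every hereditary subalgebra contains an element which is normal only modulo ideals with
`(a - δ)₊` -/
def NowhereNormal (A : Type u) [NonUnitalCStarAlgebra A] [PartialOrder A] [StarOrderedRing A] :
    Prop :=
  ∀ a : A, 0 ≤ a → ∀ δ : ℝ, 0 < δ → ∃ x ∈ R2.H28.Her a, ∀ P : Submodule ℂ A,
    IsClosedIdeal P → R2.H28.cut a δ ∉ P → star x * x - x * star x ∉ P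

theorem twoOrth_of_nowhereNormal (h : NowhereNormal A) : R2.H28.TwoOrth A := by
  refine R2.H28.twoOrth_iff.2 fun a ha δ hδ => ?_
  obtain ⟨x, hx, hP⟩ := h a ha δ hδ
  refine ⟨star x * x - x * star x, by simp [IsSelfAdjoint], bracket_her ha hx,
    fun P hP' hc l hl => hP P hP' hc (bracket_not_scalar ha hx hP' hl)⟩

omit [PartialOrder A] [StarOrderedRing A] in
theorem map_normal {B : Type u} [NonUnitalCStarAlgebra B] (φ : A →⋆ₙₐ[ℂ] B) {P : Submodule ℂ A}
    (hk : ∀ x, φ x = 0 ↔ x ∈ P) {z : A} (hn : star z * z - z * star z ∈ P) :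
    star (φ z) * φ z = φ z * star (φ z) := by
  have h1 := (hk _).2 hn
  rwa [map_sub, sub_eq_zero, map_mul, map_mul, map_star] at h1

omit [PartialOrder A] [StarOrderedRing A] in
/-- the elements `q x`, `q y` in the quotient -/
theorem key {B : Type u} [NonUnitalCStarAlgebra B] (φ : A →⋆ₙₐ[ℂ] B) {q a : A}
    (hqs : star q = q) (hqq : q * q = a) (u v : A) :
    star (φ q * φ u) * (φ q * φ v) = φ (star u * a * v) := by
  have hQ : star (φ q) = φ q := by rw [← map_star, hqs]
  rw [map_mul, map_mul, map_star, ← hqq, map_mul, star_mul, hQ]; simp only [mul_assoc]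

theorem nowhereNormal_of_eltPI (hA : EltPI A) : NowhereNormal A := by
  intro a ha δ hδ
  obtain ⟨x, y, hx, hy, hxy⟩ := hA a ha (δ / 16) (by positivity)
  set q : A := CFC.sqrt a with hq
  have hqs : star q = q := (IsSelfAdjoint.of_nonneg (CFC.sqrt_nonneg a)).star_eq
  have hqq : q * q = a := CFC.sqrt_mul_sqrt_self a ha
  refine ⟨q * (x * star y) * q, R2.H28.sqrt_conj_her ha _, fun P hP hc hn => hc ?_⟩
  obtain ⟨B, i1, i2, i3, φ, hφ, hk⟩ := hP.quot
  refine R2.H28.cut_mem_of_norm ha hδ φ hk ?_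
  by_contra hcon
  push Not at hcon
  have hQ : star (φ q) = φ q := by rw [← map_star, hqs]
  have hz : φ (q * (x * star y) * q) = (φ q * φ x) * star (φ q * φ y) := by
    rw [star_mul, hQ, map_mul, map_mul, map_mul, map_star]; simp only [mul_assoc]
  have hn' := map_normal φ hk hn
  rw [hz] at hn'
  have h1 := normal_small (M₁ := φ q * φ x) (M₂ := φ q * φ y) (C := φ a) (ε := δ / 16)
    (by positivity)
    (by rw [key φ hqs hqq, ← map_sub]; exact (NonUnitalStarAlgHom.norm_apply_le φ _).trans hx.le)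
    (by rw [key φ hqs hqq, ← map_sub]; exact (NonUnitalStarAlgHom.norm_apply_le φ _).trans hy.le)
    (by rw [key φ hqs hqq]; exact (NonUnitalStarAlgHom.norm_apply_le φ _).trans hxy.le) hn'
  have h2 : ‖φ a‖ ^ 3 ≤ ‖φ a * φ a * φ a‖ :=
    cube_norm (by rw [← map_star, (IsSelfAdjoint.of_nonneg ha).star_eq])
  set β : ℝ := ‖φ a‖ with hβ
  have hβ0 : 0 < β := hδ.trans hcon
  have h3 : δ / 16 ≤ β / 16 := by linarith
  have h4 : (δ / 16) ^ 2 * (β + δ / 16) + 3 * (δ / 16) * (β + δ / 16) ^ 2 ≤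
      (β / 16) ^ 2 * (β + β / 16) + 3 * (β / 16) * (β + β / 16) ^ 2 := by gcongr
  have h5 : (β / 16) ^ 2 * (β + β / 16) + 3 * (β / 16) * (β + β / 16) ^ 2 =
      884 / 4096 * β ^ 3 := by ring
  have h6 : 0 < β ^ 3 := by positivity
  linarith

/-- a hereditary subalgebra which is commutative modulo `P` and has multiples of `c` below its
generator -/
theorem mem_of_comm {h c : A} (h0 : 0 ≤ h) (hi : InfB h c) {P : Submodule ℂ A}
    (hP : IsClosedIdeal P)
    (hcomm : ∀ y ∈ R2.H28.Her h, ∀ z ∈ R2.H28.Her h, y * z - z * y ∈ P) : c ∈ P := by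
  obtain ⟨B, i1, i2, i3, φ, hφ, hk⟩ := hP.quot
  set q : A := CFC.sqrt h with hq
  have hqs : star q = q := (IsSelfAdjoint.of_nonneg (CFC.sqrt_nonneg h)).star_eq
  have hqq : q * q = h := CFC.sqrt_mul_sqrt_self h h0
  have hQ : star (φ q) = φ q := by rw [← map_star, hqs]
  have hmain : ∀ ε : ℝ, 0 < ε → ‖φ c‖ ^ 3 ≤ ε ^ 2 * (‖φ c‖ + ε) + 3 * ε * (‖φ c‖ + ε) ^ 2 := by
    intro ε hε
    obtain ⟨r, hr⟩ := hi.2 2 ε hε
    have r00 := hr 0 0
    have r11 := hr 1 1
    have r01 := hr 0 1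
    simp only [if_true] at r00 r11
    rw [if_neg (by decide), sub_zero] at r01
    have hher : q * (r 0 * star (r 1)) * q ∈ R2.H28.Her h := R2.H28.sqrt_conj_her h0 _
    have hher' : star (q * (r 0 * star (r 1)) * q) ∈ R2.H28.Her h := by
      have h1 : q * (r 0 * star (r 1)) * q ∈ R2.H474.her h := hher
      exact R2.H474.her_star (IsSelfAdjoint.of_nonneg h0).star_eq h1
    have hz : φ (q * (r 0 * star (r 1)) * q) = (φ q * φ (r 0)) * star (φ q * φ (r 1)) := by
      rw [star_mul, hQ, map_mul, map_mul, map_mul, map_star]; simp only [mul_assoc]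
    have hn' := map_normal φ hk (hcomm _ hher' _ hher)
    rw [hz] at hn'
    have h1 := normal_small (M₁ := φ q * φ (r 0)) (M₂ := φ q * φ (r 1)) (C := φ c) (ε := ε)
      hε.le
      (by rw [key φ hqs hqq, ← map_sub]; exact (NonUnitalStarAlgHom.norm_apply_le φ _).trans r00.le)
      (by rw [key φ hqs hqq, ← map_sub]; exact (NonUnitalStarAlgHom.norm_apply_le φ _).trans r11.le)
      (by rw [key φ hqs hqq]; exact (NonUnitalStarAlgHom.norm_apply_le φ _).trans r01.le) hn'
    exact (cube_norm (by rw [← map_star, (IsSelfAdjoint.of_nonneg hi.1).star_eq])).trans h1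
  rw [← hk]
  by_contra hne
  have hβ0 : 0 < ‖φ c‖ := norm_pos_iff.2 hne
  have h1 := hmain (‖φ c‖ / 16) (by positivity)
  have h5 : (‖φ c‖ / 16) ^ 2 * (‖φ c‖ + ‖φ c‖ / 16) +
      3 * (‖φ c‖ / 16) * (‖φ c‖ + ‖φ c‖ / 16) ^ 2 = 884 / 4096 * ‖φ c‖ ^ 3 := by ring
  have h6 : 0 < ‖φ c‖ ^ 3 := by positivity
  linarith

/-- if `x` is normal modulo `P` and all elements of `S` commute with each other, with `x` and
with the adjoints of these, then the C*-algebra generated by `x` and `S` is commutative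
modulo `P` -/
theorem gen_comm {x : A} {S : Set A}
    (hS : ∀ s ∈ S, ∀ t ∈ insert x S, s * t = t * s ∧ s * star t = star t * s)
    {P : Submodule ℂ A} (hP : IsClosedIdeal P) (hx : star x * x - x * star x ∈ P) :
    ∀ y ∈ (NonUnitalStarAlgebra.adjoin ℂ (insert x S)).topologicalClosure,
      ∀ z ∈ (NonUnitalStarAlgebra.adjoin ℂ (insert x S)).topologicalClosure,
        y * z - z * y ∈ P := by
  obtain ⟨B, i1, i2, i3, φ, hφ, hk⟩ := hP.quot
  have hn : star (φ x) * φ x = φ x * star (φ x) := map_normal φ hk hx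
  set T : Set B := φ '' (insert x S) with hT
  have hxs : ∀ s ∈ S, x * star s = star s * x := by
    intro s hs
    have h1 := congrArg star (hS s hs x (Set.mem_insert x S)).2
    rw [star_mul, star_mul, star_star] at h1
    exact h1
  have hcomm : ∀ g ∈ T, ∀ b ∈ T, g * b = b * g ∧ star g * b = b * star g := by
    rintro _ ⟨u, hu, rfl⟩ _ ⟨v, hv, rfl⟩
    rcases hu with rfl | hu
    · rcases hv with rfl | hv
      · exact ⟨rfl, hn⟩
      · have h1 := hS v hv u (Set.mem_insert u S)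
        exact ⟨by rw [← map_mul, ← map_mul, h1.1],
          by rw [← map_star, ← map_mul, ← map_mul, h1.2]⟩
    · have h1 := hS u hu v hv
      have h2 : star u * v = v * star u := by
        rcases hv with rfl | hv
        · exact (hxs u hu).symm
        · exact ((hS v hv u (Set.mem_insert_of_mem x hu)).2).symm
      exact ⟨by rw [← map_mul, ← map_mul, h1.1], by rw [← map_star, ← map_mul, ← map_mul, h2]⟩
  have hTT : ∀ g ∈ T, g ∈ NonUnitalStarSubalgebra.centralizer ℂ T := fun g hg => by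
    rw [NonUnitalStarSubalgebra.mem_centralizer_iff]
    exact fun b hb => ⟨(hcomm b hb g hg).1, (hcomm b hb g hg).2⟩
  have hle : (NonUnitalStarAlgebra.adjoin ℂ (insert x S)).topologicalClosure ≤
      ((NonUnitalStarAlgebra.adjoin ℂ T).topologicalClosure).comap φ := by
    refine NonUnitalStarSubalgebra.topologicalClosure_minimal _ ?_ ?_
    · refine NonUnitalStarAlgebra.adjoin_le fun t ht => ?_
      exact NonUnitalStarSubalgebra.le_topologicalClosure _
        (NonUnitalStarAlgebra.subset_adjoin ℂ T ⟨t, ht, rfl⟩)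
    · exact (NonUnitalStarSubalgebra.isClosed_topologicalClosure _).preimage (map_continuous φ)
  intro y hy z hz
  rw [← hk, map_sub, map_mul, map_mul, sub_eq_zero]
  have hcc := NonUnitalStarSubalgebra.topologicalClosure_adjoin_le_centralizer_centralizer ℂ T
  have h1 := hcc (hle hy)
  have h2 := hcc (hle hz)
  rw [NonUnitalStarSubalgebra.mem_centralizer_iff] at h1 h2
  have h3 : φ z ∈ NonUnitalStarSubalgebra.centralizer ℂ T := by
    rw [NonUnitalStarSubalgebra.mem_centralizer_iff]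
    exact fun g hg => h2 g (hTT g hg)
  exact ((h1 (φ z) h3).1).symm

/-- For `a ≥ 0` and `δ > 0` there is `x` in the hereditary subalgebra `Her a` and a set `S` of
elements commuting with each other, with `x` and with the adjoints of these, such that the
hereditary subalgebra of `(a - δ)₊` is contained in the C*-algebra generated by `x` and `S`. For
`S = ∅` this says `Her (cut a δ) ⊆ C*(x) ⊆ Her a`. -/
def LocallySinglyGenerated (A : Type u) [NonUnitalCStarAlgebra A] [PartialOrder A]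
    [StarOrderedRing A] : Prop :=
  ∀ a : A, 0 ≤ a → ∀ δ : ℝ, 0 < δ → ∃ x ∈ R2.H28.Her a, ∃ S : Set A,
    (∀ s ∈ S, ∀ t ∈ insert x S, s * t = t * s ∧ s * star t = star t * s) ∧
    R2.H28.Her (R2.H28.cut a δ) ⊆ (NonUnitalStarAlgebra.adjoin ℂ (insert x S)).topologicalClosure

theorem nowhereNormal_of_generated (hW : WeaklyPurelyInfinite A)
    (h : LocallySinglyGenerated A) : NowhereNormal A := by
  intro a ha δ hδ
  obtain ⟨x, hx, S, hS, hg⟩ := h a ha δ hδ
  refine ⟨x, hx, fun P hP hc hn => ?_⟩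
  have hc0 : 0 ≤ R2.H28.cut a δ := R2.H28.cut_nonneg a δ
  obtain ⟨c, hc1, hc2, hc3⟩ := exists_below hW hc0 hP hc
  exact hc2 (mem_of_comm hc0 (infB_of_allBelow hc1 hc3) hP
    fun y hy z hz => gen_comm hS hP hn y (hg hy) z (hg hz))

/-- a weakly purely infinite C*-algebra is purely infinite iff all its hereditary subalgebras
contain elements which are nowhere normal -/
theorem pi_iff_nowhereNormal (hW : WeaklyPurelyInfinite A) :
    PurelyInfinite A ↔ NowhereNormal A :=
  ⟨fun h => nowhereNormal_of_eltPI (eltPI_of A h),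
    fun h => (R2.H28.pi_iff_twoOrth hW).2 (twoOrth_of_nowhereNormal h)⟩

theorem pi_of_generated (hW : WeaklyPurelyInfinite A) (h : LocallySinglyGenerated A) :
    PurelyInfinite A := (pi_iff_nowhereNormal hW).2 (nowhereNormal_of_generated hW h)

end

section unital

variable {A : Type u} [CStarAlgebra A] [PartialOrder A] [StarOrderedRing A]

/-- in a unital C*-algebra: an element which is normal modulo no proper closed ideal gives a
self-adjoint element which is scalar modulo no proper closed ideal -/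
theorem scalar_of_normal (h : ∃ x : A, ∀ J : Submodule ℂ A, IsClosedIdeal J → (1 : A) ∉ J →
    star x * x - x * star x ∉ J) : ∃ h : A, IsSelfAdjoint h ∧ ∀ J : Submodule ℂ A,
      IsClosedIdeal J → (1 : A) ∉ J → ∀ l : ℝ, h - algebraMap ℝ A l ∉ J := by
  obtain ⟨x, hx⟩ := h
  refine ⟨star x * x - x * star x, by simp [IsSelfAdjoint], fun J hJ h1 l hl => hx J hJ h1 ?_⟩
  refine bracket_not_scalar (a := (1 : A)) (l := l) zero_le_one
    (subset_closure ⟨x, by simp⟩) hJ ?_
  rwa [mul_one, ← Algebra.algebraMap_eq_smul_one]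

/-- a purely infinite unital C*-algebra contains an element which is normal modulo no proper
closed ideal -/
theorem normal_of_pi (hA : PurelyInfinite A) : ∃ x : A, ∀ J : Submodule ℂ A, IsClosedIdeal J →
    (1 : A) ∉ J → star x * x - x * star x ∉ J := by
  obtain ⟨x, -, hx⟩ := nowhereNormal_of_eltPI (eltPI_of A hA) 1 zero_le_one (1 / 2) (by norm_num)
  refine ⟨x, fun J hJ h1 => hx J hJ fun h2 => h1 ?_⟩
  have h3 : R2.H28.cut (1 : A) (1 / 2) = (1 / 2 : ℝ) • (1 : A) := by
    rw [R2.H28.cut, cfcₙ_eq_cfc (hf := by fun_prop)]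
    rw [cfc_apply_one]
    rw [Algebra.algebraMap_eq_smul_one]
    norm_num
  rw [h3] at h2
  have h4 := J.smul_mem (2 : ℂ) h2
  have h5 : (2 : ℂ) • ((1 / 2 : ℝ) • (1 : A)) = 1 := by
    rw [← Complex.coe_smul, smul_smul]; norm_num
  rwa [h5] at h4

end unital

end Vale.Agent.P133.R2.H448
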